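import Vale.Agent.P246.R2.H429.Defs5

/-!
# P246: two presentation complexes of the same presentation are homeomorphic
-/

namespace Vale.Agent.P246.R2.H795

open Vale.Agent.P246 Vale.Agent.P246.T Vale.Agent.P246.H429
open Topology Metric Set unitInterval

theorem homeo_of_ker {K Y Z : Type} [TopologicalSpace K] [TopologicalSpace Y]
    [TopologicalSpace Z] {f : K → Y} {g : K → Z} (hf : IsQuotientMap f) (hg : IsQuotientMap g)
    (h : ∀ k l, f k = f l ↔ g k = g l) : Nonempty (Y ≃ₜ Z) := by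
  let F : Y → Z := fun y => g (Function.surjInv hf.surjective y)
  let H : Z → Y := fun z => f (Function.surjInv hg.surjective z)
  have hF : ∀ k, F (f k) = g k := fun k => (h _ _).1 (Function.surjInv_eq hf.surjective (f k))
  have hH : ∀ k, H (g k) = f k := fun k => (h _ _).2 (Function.surjInv_eq hg.surjective (g k))
  refine ⟨{ toFun := F
            invFun := H
            left_inv := fun y => ?_
            right_inv := fun z => ?_
            continuous_toFun := ?_
            continuous_invFun := ?_ }⟩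
  · obtain ⟨k, rfl⟩ := hf.surjective y
    rw [hF, hH]
  · obtain ⟨k, rfl⟩ := hg.surjective z
    rw [hH, hF]
  · rw [hf.continuous_iff]
    have : F ∘ f = g := funext hF
    rw [this]
    exact hg.continuous
  · rw [hg.continuous_iff]
    have : H ∘ g = f := funext hH
    rw [this]
    exact hf.continuous

variable {G : Type} [Group G] (Pr : FinPresentation G)

/-- the cells -/
abbrev KK : Type := Unit ⊕ ((Fin Pr.gens × I) ⊕ (Fin Pr.rels × Dk 2))

variable {Pr}

open Classical in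
/-- points of edges -/
noncomputable def enf (i : Fin Pr.gens) (t : I) : KK Pr :=
  if t = 0 ∨ t = 1 then Sum.inl () else Sum.inr (Sum.inl (i, t))

/-- points of letters -/
noncomputable def lnf : Fin Pr.gens × Bool → I → KK Pr
  | (i, true), t => enf i t
  | (i, false), t => enf i (σ t)

open Classical in
/-- points of words -/
noncomputable def wnf : List (Fin Pr.gens × Bool) → I → KK Pr
  | [], _ => Sum.inl ()
  | l :: w, t => if h : (t : ℝ) ≤ 1 / 2 then
      lnf l ⟨2 * t, (unitInterval.mul_pos_mem_iff zero_lt_two).2 ⟨t.2.1, h⟩⟩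
    else wnf w ⟨2 * t - 1, unitInterval.two_mul_sub_one_mem_iff.2 ⟨(not_le.1 h).le, t.2.2⟩⟩

open Classical in
/-- the normal form -/
noncomputable def nf : KK Pr → KK Pr
  | Sum.inl _ => Sum.inl ()
  | Sum.inr (Sum.inl (i, t)) => enf i t
  | Sum.inr (Sum.inr (j, z)) => if ‖(z : Fin 2 → ℝ)‖ < 1 then Sum.inr (Sum.inr (j, z))
    else if (z : Fin 2 → ℝ) 0 = 1 then wnf (Pr.r j).toWord (par ((z : Fin 2 → ℝ) 1))
    else Sum.inl ()

/-- points of open cells -/
def IsN : KK Pr → Prop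
  | Sum.inl _ => True
  | Sum.inr (Sum.inl (_, t)) => t ≠ 0 ∧ t ≠ 1
  | Sum.inr (Sum.inr (_, z)) => ‖(z : Fin 2 → ℝ)‖ < 1

theorem isN_enf (i : Fin Pr.gens) (t : I) : IsN (enf i t) := by
  unfold enf
  split_ifs with h
  · trivial
  · exact ⟨fun h0 => h (Or.inl h0), fun h1 => h (Or.inr h1)⟩

theorem isN_lnf (l : Fin Pr.gens × Bool) (t : I) : IsN (lnf l t) := by
  rcases l with ⟨i, b⟩
  cases b
  · exact isN_enf i _
  · exact isN_enf i _

theorem isN_wnf : ∀ (w : List (Fin Pr.gens × Bool)) (t : I), IsN (wnf w t)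
  | [], _ => trivial
  | l :: w, t => by
      rw [wnf]
      split_ifs with h
      · exact isN_lnf l _
      · exact isN_wnf w _

theorem isN_nf (k : KK Pr) : IsN (nf k) := by
  rcases k with k | ⟨i, t⟩ | ⟨j, z⟩
  · trivial
  · exact isN_enf i t
  · rw [nf]
    split_ifs with h1 h2
    · exact h1
    · exact isN_wnf _ _
    · trivial

variable {X E : Type} [TopologicalSpace X] [TopologicalSpace E] [MulAction G E]
  [ContinuousConstSMul G E] {p : C(E, X)}

/-- the characteristic maps -/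
def pr (c : PresCx Pr p) : KK Pr → X
  | Sum.inl _ => p c.e
  | Sum.inr (Sum.inl (i, t)) => p (c.a i t)
  | Sum.inr (Sum.inr (j, z)) => p (c.b j z)

theorem pr_enf (hp : ∀ (g : G) y, p (g • y) = p y) (c : PresCx Pr p) (i : Fin Pr.gens) (t : I) :
    pr c (enf i t) = p (c.a i t) := by
  unfold enf
  split_ifs with h
  · rcases h with rfl | rfl
    · rw [(c.a i).source]
      rfl
    · rw [(c.a i).target, hp]
      rfl
  · rfl

theorem pr_lnf (hp : ∀ (g : G) y, p (g • y) = p y) (c : PresCx Pr p) (l : Fin Pr.gens × Bool)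
    (t : I) : pr c (lnf l t) = p (lpath Pr.x c.a l t) := by
  rcases l with ⟨i, b⟩
  cases b
  · change pr c (enf i (σ t)) = p ((Pr.x i)⁻¹ • (c.a i) (σ t))
    rw [pr_enf hp, hp]
  · exact pr_enf hp c i t

theorem pr_wnf (hp : ∀ (g : G) y, p (g • y) = p y) (c : PresCx Pr p) :
    ∀ (w : List (Fin Pr.gens × Bool)) (t : I), pr c (wnf w t) = p (wpath Pr.x c.a w t)
  | [], _ => rfl
  | l :: w, t => by
      have h0 : wpath Pr.x c.a (l :: w) t =
        (lpath Pr.x c.a l).trans (gpath (lval Pr.x l) (wpath Pr.x c.a w)) t := rfl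
      rw [h0, Path.trans_apply, wnf]
      split_ifs with h
      · exact pr_lnf hp c l _
      · rw [pr_wnf hp c w]
        exact (hp _ _).symm

theorem pr_nf (hp : ∀ (g : G) y, p (g • y) = p y) (c : PresCx Pr p) (k : KK Pr) :
    pr c (nf k) = pr c k := by
  rcases k with k | ⟨i, t⟩ | ⟨j, z⟩
  · rfl
  · exact pr_enf hp c i t
  · rw [nf]
    have hz : ‖(z : Fin 2 → ℝ)‖ ≤ 1 := mem_closedBall_zero_iff.1 z.2
    split_ifs with h1 h2
    · rfl
    · rw [pr_wnf hp]
      exact congrArg p ((c.bdry j z (le_antisymm hz (not_lt.1 h1))).1 h2).symm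
    · exact congrArg p ((c.bdry j z (le_antisymm hz (not_lt.1 h1))).2 h2).symm

theorem Y1_mono (c : PresCx Pr p) {k l : ℕ} (h : k ≤ l) : c.Y1 k ⊆ c.Y1 l := by
  refine union_subset_union_right _ ?_
  intro x hx
  simp only [mem_iUnion] at hx ⊢
  obtain ⟨i, hi, hx⟩ := hx
  exact ⟨i, hi.trans_le h, hx⟩

theorem Y2_mono (c : PresCx Pr p) {k l : ℕ} (h : k ≤ l) : c.Y2 k ⊆ c.Y2 l := by
  refine union_subset_union_right _ ?_
  intro x hx
  simp only [mem_iUnion] at hx ⊢
  obtain ⟨i, hi, hx⟩ := hx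
  exact ⟨i, hi.trans_le h, hx⟩

/-- the point of the one-cell -/
def seg (t : I) : Dk 1 := ⟨fun _ => 2 * (t : ℝ) - 1, by
  rw [mem_closedBall_zero_iff, pi_norm_le_iff_of_nonneg zero_le_one]
  intro _
  rw [Real.norm_eq_abs, abs_le]
  have h1 := t.2.1
  have h2 := t.2.2
  constructor <;> linarith⟩

theorem edge_seg (c : PresCx Pr p) (i : Fin Pr.gens) (t : I) : c.edge i (seg t) = c.a i t := by
  change c.a i (par (2 * (t : ℝ) - 1)) = c.a i t
  congr 1
  unfold par
  have : (2 * (t : ℝ) - 1 + 1) / 2 = t := by ring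
  rw [this, projIcc_val]

theorem norm_seg {t : I} (h0 : t ≠ 0) (h1 : t ≠ 1) : ‖((seg t : Dk 1) : Fin 1 → ℝ)‖ < 1 := by
  rw [pi_norm_lt_iff zero_lt_one]
  intro _
  change ‖2 * (t : ℝ) - 1‖ < 1
  rw [Real.norm_eq_abs, abs_lt]
  have h2 : (0 : ℝ) < t := unitInterval.pos_iff_ne_zero.2 h0
  have h3 : (t : ℝ) < 1 := unitInterval.lt_one_iff_ne_one.2 h1
  constructor <;> linarith

theorem seg_inj {s t : I} (h : seg s = seg t) : s = t := by
  have h1 := congrFun (congrArg Subtype.val h) 0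
  change 2 * (s : ℝ) - 1 = 2 * (t : ℝ) - 1 at h1
  exact Subtype.ext (by linarith)

theorem edge_mem (c : PresCx Pr p) (i : Fin Pr.gens) (t : I) : p (c.a i t) ∈ c.Y1 (i + 1) := by
  refine Or.inr ?_
  simp only [mem_iUnion]
  exact ⟨i, Nat.lt_succ_self _, seg t, by
    change p (c.edge i (seg t)) = _
    rw [edge_seg]⟩

theorem edge_notMem {c : PresCx Pr p} (hc : c.Good) (i : Fin Pr.gens) {t : I} (h0 : t ≠ 0)
    (h1 : t ≠ 1) : p (c.a i t) ∉ c.Y1 i := by
  have := (hc.att1 i).int (seg t) (norm_seg h0 h1)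
  change p (c.edge i (seg t)) ∉ _ at this
  rwa [edge_seg] at this

theorem edge_inj {c : PresCx Pr p} (hc : c.Good) (i : Fin Pr.gens) {s t : I} (h0 : t ≠ 0)
    (h1 : t ≠ 1) (h2 : s ≠ 0) (h3 : s ≠ 1) (h : p (c.a i s) = p (c.a i t)) : s = t := by
  refine seg_inj ((hc.att1 i).inj (seg s) (seg t) (norm_seg h2 h3) (norm_seg h0 h1) ?_)
  change p (c.edge i (seg s)) = p (c.edge i (seg t))
  rw [edge_seg, edge_seg, h]

theorem face_mem (c : PresCx Pr p) (j : Fin Pr.rels) (z : Dk 2) : p (c.b j z) ∈ c.Y2 (j + 1) := by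
  refine Or.inr ?_
  simp only [mem_iUnion]
  exact ⟨j, Nat.lt_succ_self _, z, rfl⟩

theorem vertex_mem (c : PresCx Pr p) (k : ℕ) : p c.e ∈ c.Y1 k := Or.inl rfl

theorem pr_inj {c : PresCx Pr p} (hc : c.Good) {k l : KK Pr} (hk : IsN k) (hl : IsN l)
    (h : pr c k = pr c l) : k = l := by
  have hY : ∀ j, c.Y1 Pr.gens ⊆ c.Y2 j := fun j => subset_union_left
  -- a vertex or an edge point is not a face point
  have hface : ∀ (k : KK Pr) (j : Fin Pr.rels) (z : Dk 2), pr c k ∈ c.Y1 Pr.gens →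
      ‖(z : Fin 2 → ℝ)‖ < 1 → pr c k ≠ p (c.b j z) := by
    intro k j z hk hz he
    exact (hc.att2 j).int z hz (hY j (by change p (c.b j z) ∈ _; rw [← he]; exact hk))
  have hE : ∀ (i : Fin Pr.gens) (t : I), p (c.a i t) ∈ c.Y1 Pr.gens := fun i t =>
    Y1_mono c i.2 (edge_mem c i t)
  have hee : ∀ (i i' : Fin Pr.gens) (t t' : I), t' ≠ 0 → t' ≠ 1 → (i : ℕ) < i' →
      p (c.a i t) ≠ p (c.a i' t') := by
    intro i i' t t' h0 h1 hi he
    exact edge_notMem hc i' h0 h1 (he ▸ Y1_mono c hi (edge_mem c i t))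
  have hff : ∀ (j j' : Fin Pr.rels) (z z' : Dk 2), ‖(z' : Fin 2 → ℝ)‖ < 1 → (j : ℕ) < j' →
      p (c.b j z) ≠ p (c.b j' z') := by
    intro j j' z z' hz hj he
    refine (hc.att2 j').int z' hz ?_
    change p (c.b j' z') ∈ _
    rw [← he]
    exact Y2_mono c hj (face_mem c j z)
  rcases k with k | ⟨i, t⟩ | ⟨j, z⟩ <;> rcases l with l | ⟨i', t'⟩ | ⟨j', z'⟩
  · rfl
  · exact absurd (show p (c.a i' t') ∈ c.Y1 i' by
      have h' : p c.e = p (c.a i' t') := h
      rw [← h']; exact vertex_mem c _) (edge_notMem hc i' hl.1 hl.2)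
  · exact absurd h (hface (Sum.inl k) j' z' (vertex_mem c _) hl)
  · exact absurd (show p (c.a i t) ∈ c.Y1 i by
      have h' : p (c.a i t) = p c.e := h
      rw [h']; exact vertex_mem c _) (edge_notMem hc i hk.1 hk.2)
  · rcases lt_trichotomy (i : ℕ) i' with h1 | h1 | h1
    · exact absurd h (hee i i' t t' hl.1 hl.2 h1)
    · have h2 : i = i' := Fin.ext h1
      subst h2
      have h3 : t = t' := edge_inj hc i hl.1 hl.2 hk.1 hk.2 h
      rw [h3]
    · exact absurd h.symm (hee i' i t' t hk.1 hk.2 h1)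
  · exact absurd h (hface (Sum.inr (Sum.inl (i, t))) j' z' (hE i t) hl)
  · exact absurd h.symm (hface (Sum.inl l) j z (vertex_mem c _) hk)
  · exact absurd h.symm (hface (Sum.inr (Sum.inl (i', t'))) j z (hE i' t') hk)
  · rcases lt_trichotomy (j : ℕ) j' with h1 | h1 | h1
    · exact absurd h (hff j j' z z' hl h1)
    · have h2 : j = j' := Fin.ext h1
      subst h2
      have h3 : z = z' := (hc.att2 j).inj z z' hk hl h
      rw [h3]
    · exact absurd h.symm (hff j' j z' z hk h1)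

theorem pr_eq_iff (hp : ∀ (g : G) y, p (g • y) = p y) {c : PresCx Pr p} (hc : c.Good)
    (k l : KK Pr) : pr c k = pr c l ↔ nf k = nf l := by
  constructor
  · intro h
    exact pr_inj hc (isN_nf k) (isN_nf l) (by rw [pr_nf hp, pr_nf hp, h])
  · intro h
    rw [← pr_nf hp c k, h, pr_nf hp]

theorem continuous_pr (c : PresCx Pr p) : Continuous (pr c) := by
  refine continuous_sum_dom.2 ⟨continuous_const, continuous_sum_dom.2 ⟨?_, ?_⟩⟩
  · refine continuous_iff_continuousAt.2 fun x => ?_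
    have : Continuous fun y : Fin Pr.gens × I => p (c.a y.1 y.2) :=
      continuous_prod_of_discrete_left.2 fun i => p.continuous.comp (c.a i).continuous
    exact this.continuousAt
  · refine continuous_iff_continuousAt.2 fun x => ?_
    have : Continuous fun y : Fin Pr.rels × Dk 2 => p (c.b y.1 y.2) :=
      continuous_prod_of_discrete_left.2 fun i => p.continuous.comp (c.b i).continuous
    exact this.continuousAt

theorem pr_mem (c : PresCx Pr p) (k : KK Pr) : pr c k ∈ c.Y := by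
  have hY : ∀ j, c.Y1 Pr.gens ⊆ c.Y2 j := fun j => subset_union_left
  rcases k with k | ⟨i, t⟩ | ⟨j, z⟩
  · exact hY _ (vertex_mem c _)
  · exact hY _ (Y1_mono c i.2 (edge_mem c i t))
  · exact Y2_mono c j.2 (face_mem c j z)

theorem quot [T2Space X] (c : PresCx Pr p) :
    IsQuotientMap (fun k : KK Pr => (⟨pr c k, pr_mem c k⟩ : c.Y)) := by
  have hcont : Continuous (fun k : KK Pr => (⟨pr c k, pr_mem c k⟩ : c.Y)) :=
    (continuous_pr c).subtype_mk _
  refine hcont.isClosedMap.isQuotientMap hcont ?_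
  rintro ⟨y, hy⟩
  rcases hy with (rfl | hy) | hy
  · exact ⟨Sum.inl (), rfl⟩
  · simp only [mem_iUnion] at hy
    obtain ⟨i, _, z, rfl⟩ := hy
    exact ⟨Sum.inr (Sum.inl (i, par ((z : Fin 1 → ℝ) 0))), rfl⟩
  · simp only [mem_iUnion] at hy
    obtain ⟨j, _, z, rfl⟩ := hy
    exact ⟨Sum.inr (Sum.inr (j, z)), rfl⟩

/-- ROW HOM -/
theorem hom : SpecHom := by
  intro G X E X' E' _ _ _ _ _ _ p _ _ _ _ _ p' hp hp' Pr c c' hc hc'
  have h1 : ∀ (g : G) y, p (g • y) = p y := fun g y => hp.map_smul g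
  have h2 : ∀ (g : G) y, p' (g • y) = p' y := fun g y => hp'.map_smul g
  refine homeo_of_ker (quot c) (quot c') fun k l => ?_
  rw [Subtype.mk.injEq, Subtype.mk.injEq, pr_eq_iff h1 hc, pr_eq_iff h2 hc']

end Vale.Agent.P246.R2.H795
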